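/-
helper42 -- S0355 squad (track D), leaf C2 (Null): hyperplanes are Lebesgue null.
Same names and signatures as `Crest.Agent.Helper28.S0355.Blueprint.volume_lc_eq` and
`volume_lc_pair`.
-/
import Crest.Agent.Helper28.S0355.Defs

set_option autoImplicit false
open MeasureTheory
open scoped ENNReal Pointwise

namespace Crest.Agent.Helper42.S0355

open Crest.Agent.Helper28.S0355

/-- A level set of a nonzero linear functional on `P20` is Lebesgue null. -/
theorem volume_levelSet (f : P20 →ₗ[ℝ] ℝ) (c : ℝ) (v : P20) (hv : f v ≠ 0) :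
    volume {x : P20 | f x = c} = 0 := by
  have hker : LinearMap.ker f ≠ ⊤ := by
    intro h
    apply hv
    have : v ∈ LinearMap.ker f := by rw [h]; trivial
    simpa using this
  have h0 : volume (LinearMap.ker f : Set P20) = 0 :=
    Measure.addHaar_submodule volume _ hker
  set x₀ : P20 := (c / f v) • v with hx₀
  have hfx₀ : f x₀ = c := by
    rw [hx₀, map_smul, smul_eq_mul, div_mul_cancel₀ _ hv]
  have hset : {x : P20 | f x = c} = (fun h => h + (-x₀)) ⁻¹' (LinearMap.ker f : Set P20) := by
    ext x
    simp only [Set.mem_setOf_eq, Set.mem_preimage, SetLike.mem_coe, LinearMap.mem_ker, map_add,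
      map_neg, hfx₀]
    constructor
    · intro h; rw [h]; ring
    · intro h; linarith
  rw [hset, measure_preimage_add_right]
  exact h0

/-- `lc k` as a linear map. -/
def lcL (k : Fin 20 ⊕ Bool) : P20 →ₗ[ℝ] ℝ where
  toFun := lc k
  map_add' x y := by
    rcases k with j | b
    · simp only [lc, Pi.add_apply]; ring
    · cases b <;> simp only [lc, s1, s2, Pi.add_apply, Finset.sum_add_distrib]
  map_smul' t x := by
    rcases k with j | b
    · simp only [lc, Pi.smul_apply, smul_eq_mul, RingHom.id_apply]; ring
    · cases b <;>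
        simp only [lc, s1, s2, Pi.smul_apply, smul_eq_mul, RingHom.id_apply, Finset.mul_sum]

@[simp] theorem lcL_apply (k : Fin 20 ⊕ Bool) (x : P20) : lcL k x = lc k x := rfl

theorem mem_B1 (m : Fin 20) : m ∈ B1 ↔ (m : ℕ) < 10 := by simp [B1]

theorem mem_B2 (m : Fin 20) : m ∈ B2 ↔ ¬ (m : ℕ) < 10 := by simp [B2, B1]

theorem lc_inl_single (i m : Fin 20) :
    lc (Sum.inl i) (Pi.single m (1 : ℝ)) = if i = m then -1 else 0 := by
  simp only [lc, Pi.single_apply]
  split_ifs <;> simp

theorem lc_false_single (m : Fin 20) :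
    lc (Sum.inr false) (Pi.single m (1 : ℝ)) = if (m : ℕ) < 10 then 1 else 0 := by
  simp only [lc, s1, Finset.sum_pi_single', mem_B1]

theorem lc_true_single (m : Fin 20) :
    lc (Sum.inr true) (Pi.single m (1 : ℝ)) = if (m : ℕ) < 10 then 0 else 1 := by
  simp only [lc, s2, Finset.sum_pi_single', mem_B2]
  split_ifs <;> rfl

theorem volume_lc_eq (k : Fin 20 ⊕ Bool) : volume {x : P20 | lc k x = bc k} = 0 := by
  rcases k with j | b
  · refine volume_levelSet (lcL (Sum.inl j)) _ (Pi.single j 1) ?_
    rw [lcL_apply, lc_inl_single]; simp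
  · cases b
    · refine volume_levelSet (lcL (Sum.inr false)) _ (Pi.single 0 1) ?_
      rw [lcL_apply, lc_false_single]; simp
    · refine volume_levelSet (lcL (Sum.inr true)) _ (Pi.single 19 1) ?_
      rw [lcL_apply, lc_true_single]; simp

/-- For `k ≠ k'` there is a vector killed by `lc k` but not by `lc k'`. -/
theorem exists_sep (k k' : Fin 20 ⊕ Bool) (hne : k ≠ k') :
    ∃ v : P20, lc k v = 0 ∧ lc k' v ≠ 0 := by
  rcases k with i | b <;> rcases k' with j | b'
  · -- inl i, inl j
    have hij : i ≠ j := fun h => hne (by rw [h])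
    refine ⟨Pi.single j 1, ?_, ?_⟩
    · rw [lc_inl_single, if_neg hij]
    · rw [lc_inl_single, if_pos rfl]; norm_num
  · -- inl i, inr b'
    cases b'
    · by_cases hi : i = 0
      · refine ⟨Pi.single 1 1, ?_, ?_⟩
        · rw [lc_inl_single, if_neg (by rw [hi]; decide)]
        · rw [lc_false_single]; simp
      · refine ⟨Pi.single 0 1, ?_, ?_⟩
        · rw [lc_inl_single, if_neg hi]
        · rw [lc_false_single]; simp
    · by_cases hi : i = 19
      · refine ⟨Pi.single 18 1, ?_, ?_⟩
        · rw [lc_inl_single, if_neg (by rw [hi]; decide)]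
        · rw [lc_true_single]; simp
      · refine ⟨Pi.single 19 1, ?_, ?_⟩
        · rw [lc_inl_single, if_neg hi]
        · rw [lc_true_single]; simp
  · -- inr b, inl j
    cases b
    · by_cases hj : (j : ℕ) < 10
      · by_cases hj0 : j = 0
        · refine ⟨Pi.single j 1 - Pi.single 1 1, ?_, ?_⟩
          · rw [← lcL_apply, map_sub, lcL_apply, lcL_apply, lc_false_single, lc_false_single,
              if_pos hj]; simp
          · rw [← lcL_apply, map_sub, lcL_apply, lcL_apply, lc_inl_single, lc_inl_single,
              if_pos rfl, if_neg (by rw [hj0]; decide)]; norm_num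
        · refine ⟨Pi.single j 1 - Pi.single 0 1, ?_, ?_⟩
          · rw [← lcL_apply, map_sub, lcL_apply, lcL_apply, lc_false_single, lc_false_single,
              if_pos hj]; simp
          · rw [← lcL_apply, map_sub, lcL_apply, lcL_apply, lc_inl_single, lc_inl_single,
              if_pos rfl, if_neg hj0]; norm_num
      · refine ⟨Pi.single j 1, ?_, ?_⟩
        · rw [lc_false_single, if_neg hj]
        · rw [lc_inl_single, if_pos rfl]; norm_num
    · by_cases hj : (j : ℕ) < 10
      · refine ⟨Pi.single j 1, ?_, ?_⟩
        · rw [lc_true_single, if_pos hj]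
        · rw [lc_inl_single, if_pos rfl]; norm_num
      · by_cases hj0 : j = 19
        · refine ⟨Pi.single j 1 - Pi.single 18 1, ?_, ?_⟩
          · rw [← lcL_apply, map_sub, lcL_apply, lcL_apply, lc_true_single, lc_true_single,
              if_neg hj]; simp
          · rw [← lcL_apply, map_sub, lcL_apply, lcL_apply, lc_inl_single, lc_inl_single,
              if_pos rfl, if_neg (by rw [hj0]; decide)]; norm_num
        · refine ⟨Pi.single j 1 - Pi.single 19 1, ?_, ?_⟩
          · rw [← lcL_apply, map_sub, lcL_apply, lcL_apply, lc_true_single, lc_true_single,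
              if_neg hj]; simp
          · rw [← lcL_apply, map_sub, lcL_apply, lcL_apply, lc_inl_single, lc_inl_single,
              if_pos rfl, if_neg hj0]; norm_num
  · -- inr b, inr b'
    cases b <;> cases b'
    · exact absurd rfl hne
    · refine ⟨Pi.single 19 1, ?_, ?_⟩
      · rw [lc_false_single]; simp
      · rw [lc_true_single]; simp
    · refine ⟨Pi.single 0 1, ?_, ?_⟩
      · rw [lc_true_single]; simp
      · rw [lc_false_single]; simp
    · exact absurd rfl hne

theorem volume_lc_pair (u : P20) (k k' : Fin 20 ⊕ Bool) (hne : k ≠ k') (hk : 0 < lc k u)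
    (hk' : 0 < lc k' u) :
    volume {x : P20 | lc k' u * lc k x - lc k u * lc k' x = lc k' u * bc k - lc k u * bc k'} = 0 := by
  obtain ⟨v, hv0, hv1⟩ := exists_sep k k' hne
  have h := volume_levelSet (lc k' u • lcL k - lc k u • lcL k') (lc k' u * bc k - lc k u * bc k') v
    (by
      simp only [LinearMap.sub_apply, LinearMap.smul_apply, lcL_apply, smul_eq_mul, hv0, mul_zero,
        zero_sub, neg_ne_zero]
      exact mul_ne_zero hk.ne' hv1)
  simpa only [LinearMap.sub_apply, LinearMap.smul_apply, lcL_apply, smul_eq_mul] using h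

end Crest.Agent.Helper42.S0355
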