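/-
helper42 -- S0355 squad (track D), leaf C3 (Union): a finite union with null overlaps.
Same name and signature as `Crest.Agent.Helper28.S0355.Blueprint.measure_union_of_null`.
-/
import Crest.Agent.Helper28.S0355.Defs

set_option autoImplicit false
open MeasureTheory
open scoped ENNReal Pointwise

namespace Crest.Agent.Helper42.S0355

open Crest.Agent.Helper28.S0355

theorem measure_union_of_null {α ι : Type*} [MeasurableSpace α] (μ : Measure α) [Fintype ι]
    (A T : Set α) (Bs : ι → Set α) (hT : T ⊆ A ∪ ⋃ i, Bs i) (hA : A ⊆ T) (hB : ∀ i, Bs i ⊆ T)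
    (hAm : MeasurableSet A) (hBm : ∀ i, MeasurableSet (Bs i))
    (hAB : ∀ i, μ (A ∩ Bs i) = 0) (hBB : ∀ i j, i ≠ j → μ (Bs i ∩ Bs j) = 0) :
    μ T = μ A + ∑ i, μ (Bs i) := by
  have hTeq : T = A ∪ ⋃ i, Bs i :=
    Set.Subset.antisymm hT (Set.union_subset hA (Set.iUnion_subset hB))
  have hd : AEDisjoint μ A (⋃ i, Bs i) := by
    rw [AEDisjoint.iUnion_right_iff]
    exact fun i => hAB i
  rw [hTeq, measure_union₀ (MeasurableSet.iUnion hBm).nullMeasurableSet hd,
    measure_iUnion₀ (fun i j hij => hBB i j hij) (fun i => (hBm i).nullMeasurableSet),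
    tsum_fintype]

end Crest.Agent.Helper42.S0355
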